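import Vale.Agent.P130.Periodic

namespace Vale.Agent.Results.P130.OrthonormalOrbits

open MeasureTheory Filter Vale.Agent.P130
open scoped ComplexConjugate

theorem result {X : Type*} [MeasurableSpace X] (μ : Measure X) [IsProbabilityMeasure μ]
    (T : X ≃ᵐ X) (h : HasSimpleLebesgueSpectrum μ T) :
    (∀ w : X → ℂ, MemLp w 2 μ → ∫ x, w x ∂μ = 0 →
      (∀ n m : ℤ, ∫ x, w ((T.toEquiv ^ n) x) * conj (w ((T.toEquiv ^ m) x)) ∂μ
        = if n = m then 1 else 0) → IsLebesgueGenerator μ T w) ∧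
    (∀ (g : X → ℂ) (m : ℕ), 0 < m → MemLp g 2 μ →
      (fun x => g ((T.toEquiv ^ (m : ℤ)) x)) =ᵐ[μ] g → g =ᵐ[μ] fun _ => ∫ x, g x ∂μ) := by
  obtain ⟨hT, f, hf⟩ := h
  refine ⟨fun w hw2 hw0 hwo => generator_of_orthonormal hT hf hw2 hw0 hwo, ?_⟩
  intro g m hm hg2 hper
  set c : ℂ := ∫ x, g x ∂μ with hc
  have hgi : Integrable g μ := hg2.integrable (by norm_num)
  have h2 : MemLp (fun x => g x - c) 2 μ := hg2.sub (memLp_const c)
  have h0 : ∫ x, (g x - c) ∂μ = 0 := by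
    rw [integral_sub hgi (integrable_const c)]
    simp [hc]
  have hp : (fun x => g (iter T (m : ℤ) x) - c) =ᵐ[μ] fun x => g x - c := by
    filter_upwards [hper] with x hx
    rw [iter_apply, hx]
  have := ae_zero_of_periodic hT hf h2 h0 hm hp
  filter_upwards [this] with x hx
  simp only [Pi.zero_apply] at hx
  exact sub_eq_zero.1 hx

end Vale.Agent.Results.P130.OrthonormalOrbits
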