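import Vale.Agent.Results.P130.Deterministic
import Vale.Agent.Results.P130.OrthonormalOrbits

namespace Vale.Agent.Results.P130.A0_Combined

open MeasureTheory Filter Vale.Agent.P130
open scoped ComplexConjugate

/-- Four necessary conditions on a transformation with simple Lebesgue spectrum. -/
theorem result {X : Type*} {m0 : MeasurableSpace X} (μ : Measure X) [IsProbabilityMeasure μ]
    (T : X ≃ᵐ X) (h : HasSimpleLebesgueSpectrum μ T) :
    (∀ 𝒜 : MeasurableSpace X, 𝒜 ≤ m0 →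
      (∀ A, MeasurableSet[𝒜] A → MeasurableSet[𝒜] (T ⁻¹' A)) →
      ∀ A, MeasurableSet[𝒜] A → ∃ B, MeasurableSet[𝒜] B ∧ μ (symmDiff A (T ⁻¹' B)) = 0) ∧
    (∀ g : X → ℂ, Measurable g → MemLp g 2 μ →
      ∃ g' : X → ℂ,
        Measurable[⨆ n : ℕ, MeasurableSpace.comap (fun x => g ((T.toEquiv ^ ((n : ℤ) + 1)) x))
          inferInstance] g' ∧ g =ᵐ[μ] g') ∧
    (∀ w : X → ℂ, MemLp w 2 μ → ∫ x, w x ∂μ = 0 →
      (∀ n m : ℤ, ∫ x, w ((T.toEquiv ^ n) x) * conj (w ((T.toEquiv ^ m) x)) ∂μ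
        = if n = m then 1 else 0) → IsLebesgueGenerator μ T w) ∧
    (∀ (g : X → ℂ) (m : ℕ), 0 < m → MemLp g 2 μ →
      (fun x => g ((T.toEquiv ^ (m : ℤ)) x)) =ᵐ[μ] g → g =ᵐ[μ] fun _ => ∫ x, g x ∂μ) :=
  ⟨(Deterministic.result μ T h).1, (Deterministic.result μ T h).2,
    (OrthonormalOrbits.result μ T h).1, (OrthonormalOrbits.result μ T h).2⟩

end Vale.Agent.Results.P130.A0_Combined
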