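import Vale.Agent.P130.Determinism

namespace Vale.Agent.Results.P130.Deterministic

open MeasureTheory Filter Vale.Agent.P130

theorem sigma_aux {X : Type*} {𝒜 𝒞 m0 : MeasurableSpace X} (μ : Measure X)
    [IsProbabilityMeasure μ]
    (T : X ≃ᵐ X) (h : HasSimpleLebesgueSpectrum μ T) (h𝒜 : 𝒜 ≤ m0)
    (h𝒞def : 𝒞 = MeasurableSpace.comap T 𝒜)
    (hT𝒜 : ∀ A, MeasurableSet[𝒜] A → MeasurableSet[𝒜] (T ⁻¹' A)) (A : Set X)
    (hA : MeasurableSet[𝒜] A) : ∃ B, MeasurableSet[𝒜] B ∧ μ (symmDiff A (T ⁻¹' B)) = 0 := by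
  have h𝒞𝒜 : 𝒞 ≤ 𝒜 := by
    rw [h𝒞def]
    rintro C ⟨B, hB, rfl⟩
    exact hT𝒜 B hB
  have h𝒞 : 𝒞 ≤ m0 := h𝒞𝒜.trans h𝒜
  have hT𝒞 : @Measurable X X 𝒞 𝒞 T := by
    intro C hC
    have h1 := h𝒞𝒜 C hC
    rw [h𝒞def]
    exact ⟨C, h1, rfl⟩
  set g : X → ℂ := A.indicator (fun _ => (1 : ℂ)) with hg
  have hgm : StronglyMeasurable g := stronglyMeasurable_const.indicator (h𝒜 A hA)
  have hg2 : MemLp g 2 μ := by
    apply MemLp.of_bound hgm.aestronglyMeasurable 1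
    filter_upwards with x
    by_cases hx : x ∈ A <;> simp [hg, hx]
  have hgT : StronglyMeasurable[𝒞] (fun x => g (T x)) := by
    have e : (fun x => g (T x)) = (T ⁻¹' A).indicator (fun _ => (1 : ℂ)) := by
      funext x
      by_cases hx : T x ∈ A
      · have hx' : x ∈ T ⁻¹' A := hx
        simp [hg, hx, hx']
      · have hx' : x ∉ T ⁻¹' A := hx
        simp [hg, hx, hx']
    rw [e]
    apply stronglyMeasurable_const.indicator
    rw [h𝒞def]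
    exact ⟨A, hA, rfl⟩
  have hae := ae_eq_condExp h h𝒞 hT𝒞 hg2 hgT
  have hcm : StronglyMeasurable[𝒞] (μ[g|𝒞]) := stronglyMeasurable_condExp
  have hC : MeasurableSet[𝒞] ((μ[g|𝒞]) ⁻¹' {1}) := hcm.measurable (measurableSet_singleton 1)
  have hC' : MeasurableSet[MeasurableSpace.comap T 𝒜] ((μ[g|𝒞]) ⁻¹' {1}) := by
    rw [← h𝒞def]; exact hC
  obtain ⟨B, hB, hBC⟩ := hC'
  refine ⟨B, hB, ?_⟩
  rw [hBC, measure_symmDiff_eq_zero_iff]
  filter_upwards [hae] with x hx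
  apply propext
  show x ∈ A ↔ (μ[g|𝒞]) x = 1
  rw [← hx]
  by_cases hxA : x ∈ A <;> simp [hg, hxA]

theorem process_aux {X : Type*} {𝒞 m0 : MeasurableSpace X} (μ : Measure X)
    [IsProbabilityMeasure μ]
    (T : X ≃ᵐ X) (h : HasSimpleLebesgueSpectrum μ T) (g : X → ℂ) (hgm : Measurable g)
    (hg2 : MemLp g 2 μ)
    (h𝒞def : 𝒞 = ⨆ n : ℕ,
      MeasurableSpace.comap (fun x => g ((T.toEquiv ^ ((n : ℤ) + 1)) x)) inferInstance) :
    ∃ g' : X → ℂ, Measurable[𝒞] g' ∧ g =ᵐ[μ] g' := by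
  have h𝒞 : 𝒞 ≤ m0 := by
    rw [h𝒞def]
    apply iSup_le
    intro n
    rw [← measurable_iff_comap_le]
    exact hgm.comp (measurable_zpow T _)
  have hmeas : ∀ n : ℕ, @Measurable X ℂ 𝒞 _ (fun x => g ((T.toEquiv ^ ((n : ℤ) + 1)) x)) := by
    intro n
    rw [measurable_iff_comap_le, h𝒞def]
    exact le_iSup (fun n : ℕ =>
      MeasurableSpace.comap (fun x => g ((T.toEquiv ^ ((n : ℤ) + 1)) x)) inferInstance) n
  have hT𝒞 : @Measurable X X 𝒞 𝒞 T := by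
    rw [measurable_iff_comap_le]
    conv_lhs => rw [h𝒞def]
    rw [MeasurableSpace.comap_iSup]
    apply iSup_le
    intro n
    rw [MeasurableSpace.comap_comp, ← measurable_iff_comap_le]
    have := hmeas (n + 1)
    have e : (fun x => g ((T.toEquiv ^ (((n + 1 : ℕ) : ℤ) + 1)) x))
        = (fun x => g ((T.toEquiv ^ ((n : ℤ) + 1)) x)) ∘ T := by
      funext x
      simp only [Function.comp]
      push_cast
      rw [zpow_add_one (T.toEquiv) ((n : ℤ) + 1), Equiv.Perm.mul_apply]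
      rfl
    rw [e] at this
    exact this
  have hgT : StronglyMeasurable[𝒞] (fun x => g (T x)) := by
    have := hmeas 0
    simp only [Nat.cast_zero, zero_add, zpow_one] at this
    exact this.stronglyMeasurable
  have hae := ae_eq_condExp h h𝒞 hT𝒞 hg2 hgT
  exact ⟨μ[g|𝒞], stronglyMeasurable_condExp.measurable, hae⟩

theorem result {X : Type*} {m0 : MeasurableSpace X} (μ : Measure X) [IsProbabilityMeasure μ]
    (T : X ≃ᵐ X) (h : HasSimpleLebesgueSpectrum μ T) :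
    (∀ 𝒜 : MeasurableSpace X, 𝒜 ≤ m0 →
      (∀ A, MeasurableSet[𝒜] A → MeasurableSet[𝒜] (T ⁻¹' A)) →
      ∀ A, MeasurableSet[𝒜] A → ∃ B, MeasurableSet[𝒜] B ∧ μ (symmDiff A (T ⁻¹' B)) = 0) ∧
    (∀ g : X → ℂ, Measurable g → MemLp g 2 μ →
      ∃ g' : X → ℂ,
        Measurable[⨆ n : ℕ, MeasurableSpace.comap (fun x => g ((T.toEquiv ^ ((n : ℤ) + 1)) x))
          inferInstance] g' ∧ g =ᵐ[μ] g') :=
  ⟨fun _ h𝒜 hT𝒜 A hA => sigma_aux μ T h h𝒜 rfl hT𝒜 A hA,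
    fun g hgm hg2 => process_aux μ T h g hgm hg2 rfl⟩

end Vale.Agent.Results.P130.Deterministic
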